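import Vale.Agent.P068.Ray

open scoped Matroid

namespace Vale.Agent.Results.P068.Counterexample

open Vale.Agent.P068

theorem result : ∃ (α : Type) (_ : Countable α) (M N : Matroid α),
    M.E = Set.univ ∧ N.E = Set.univ ∧ M✶ = M ∧ N✶ = N ∧
    ¬ HasPackingCovering Set.univ ![M, N] ∧ ¬ SatisfiesIntersection Set.univ M N :=
  ⟨Bu × Om, inferInstance, MM (Equiv.refl _), MM shift, MM_ground _, MM_ground _, MM_dual _,
    MM_dual _, not_packing, not_intersection⟩

end Vale.Agent.Results.P068.Counterexample
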